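import Vale.Agent.Lib.P243S.First

/-! Algebra of the contact pair, diagonalization, the cross product. -/

namespace Vale.Agent.Lib.P243S

open MeasureTheory Set Real Filter Topology
open scoped RealInnerProductSpace Matrix
open Vale.Agent.Lib.P243 Vale.Agent.Lib.P237.PN

noncomputable section

lemma poly_V {a b c : ℝ} (ha : 0 ≤ a) (hb : 0 ≤ b) (hc : 0 ≤ c) :
    (41 / 50) * (a + b + c) ^ 2 * c ≤
      (b + c) * (a + c) * c + (b + c) * (a + b) * b + (a + c) * (a + b) * a := by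
  nlinarith [mul_nonneg ha hb, mul_nonneg ha hc, mul_nonneg hb hc, mul_nonneg (mul_nonneg ha hb) hc,
    mul_nonneg ha (sq_nonneg (a - 41/100*c)), mul_nonneg hb (sq_nonneg (b - 41/100*c)),
    mul_nonneg hc (sq_nonneg (a - 41/100*c)), mul_nonneg hc (sq_nonneg (b - 41/100*c)),
    mul_nonneg hc (sq_nonneg (a - b)), mul_nonneg hc (sq_nonneg (a + b - 41/100*c)),
    mul_nonneg ha (sq_nonneg (a - b)), mul_nonneg hb (sq_nonneg (a - b)),
    mul_nonneg ha (sq_nonneg (b - c)), mul_nonneg hb (sq_nonneg (a - c))]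

/-- Weights of the extremal second moment. -/
def ss (x : Fin 3 → ℝ) (k : Fin 3) : ℝ := (1 - x k / (x 0 + x 1 + x 2)) / 2

/-- The value reached by the pair of contact points. -/
def VV (x : Fin 3 → ℝ) : ℝ :=
  2 * (ss x 1 * ss x 2 * x 0 + ss x 0 * ss x 2 * x 1 + ss x 0 * ss x 1 * x 2)

lemma VV_ge (x : Fin 3 → ℝ) (hx : ∀ k, 0 ≤ x k) (hT : 0 < x 0 + x 1 + x 2) (k : Fin 3) :
    (41 / 100) * x k ≤ VV x := by
  set T := x 0 + x 1 + x 2 with hTd
  have e : VV x = ((x 1 + x 2) * (x 0 + x 2) * x 2 + (x 1 + x 2) * (x 0 + x 1) * x 1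
      + (x 0 + x 2) * (x 0 + x 1) * x 0) / (2 * T ^ 2) := by
    have h0 : ss x 0 = (x 1 + x 2) / (2 * T) := by
      have h9 : ss x 0 = (1 - x 0 / T) / 2 := rfl
      have hT' : T ≠ 0 := hT.ne'
      rw [h9]
      field_simp
      rw [hTd]
      ring
    have h1 : ss x 1 = (x 0 + x 2) / (2 * T) := by
      have h9 : ss x 1 = (1 - x 1 / T) / 2 := rfl
      have hT' : T ≠ 0 := hT.ne'
      rw [h9]
      field_simp
      rw [hTd]
      ring
    have h2 : ss x 2 = (x 0 + x 1) / (2 * T) := by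
      have h9 : ss x 2 = (1 - x 2 / T) / 2 := rfl
      have hT' : T ≠ 0 := hT.ne'
      rw [h9]
      field_simp
      rw [hTd]
      ring
    simp only [VV]
    rw [h0, h1, h2]
    field_simp
    ring
  rw [e, le_div_iff₀ (by positivity)]
  fin_cases k
  · have := poly_V (hx 1) (hx 2) (hx 0)
    simp only [Fin.zero_eta]
    rw [hTd]
    nlinarith
  · have := poly_V (hx 0) (hx 2) (hx 1)
    simp only [Fin.mk_one]
    rw [hTd]
    nlinarith
  · have := poly_V (hx 0) (hx 1) (hx 2)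
    simp only [Fin.reduceFinMk]
    rw [hTd]
    nlinarith

/-- The quadratic form of the pair. -/
def QQ (x : Fin 3 → ℝ) (z y : EE 3) : ℝ :=
  x 0 * (z 1 * y 2 - z 2 * y 1) ^ 2 + x 1 * (z 2 * y 0 - z 0 * y 2) ^ 2
    + x 2 * (z 0 * y 1 - z 1 * y 0) ^ 2

/-- The symmetric matrix of `QQ x z`. -/
def GG (x : Fin 3 → ℝ) (z : EE 3) : MM 3 :=
  !![x 1 * z 2 ^ 2 + x 2 * z 1 ^ 2, - (x 2 * z 0 * z 1), - (x 1 * z 0 * z 2);
     - (x 2 * z 0 * z 1), x 0 * z 2 ^ 2 + x 2 * z 0 ^ 2, - (x 0 * z 1 * z 2);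
     - (x 1 * z 0 * z 2), - (x 0 * z 1 * z 2), x 0 * z 1 ^ 2 + x 1 * z 0 ^ 2]

lemma inner_EE3 (p q : EE 3) : ⟪p, q⟫ = p 0 * q 0 + p 1 * q 1 + p 2 * q 2 := by
  simp only [PiLp.inner_apply, RCLike.inner_apply, conj_trivial, Fin.sum_univ_three]
  ring

lemma act_coord (M : MM 3) (p : EE 3) (i : Fin 3) :
    act M p i = M i 0 * p 0 + M i 1 * p 1 + M i 2 * p 2 := by
  simp [act, Matrix.mulVec, dotProduct, Fin.sum_univ_three]

lemma inner_GG (x : Fin 3 → ℝ) (z y : EE 3) : ⟪act (GG x z) y, y⟫ = QQ x z y := by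
  rw [inner_EE3, act_coord, act_coord, act_coord]
  simp only [GG, QQ, Matrix.of_apply, Matrix.cons_val', Matrix.cons_val_zero, Matrix.cons_val_one,
    Matrix.cons_val]
  ring

lemma inner_diag (r : Fin 3 → ℝ) (y : EE 3) :
    ⟪act (Matrix.diagonal r) y, y⟫ = r 0 * y 0 ^ 2 + r 1 * y 1 ^ 2 + r 2 * y 2 ^ 2 := by
  rw [inner_EE3, act_coord, act_coord, act_coord]
  simp [Matrix.diagonal_apply]
  ring

lemma trace_tau (x : Fin 3 → ℝ) (hT : x 0 + x 1 + x 2 ≠ 0) (G : MM 3) :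
    (G.trace - (Matrix.diagonal x * G).trace / (Matrix.diagonal x).trace) / 2
      = ss x 0 * G 0 0 + ss x 1 * G 1 1 + ss x 2 * G 2 2 := by
  simp only [Matrix.trace, Matrix.diag, Fin.sum_univ_three, Matrix.diagonal_mul,
    Matrix.diagonal_apply_eq, ss]
  field_simp
  ring

/-- Two contact points with a large value of the form. -/
theorem pair_test {K : Set (EE 3)} (x : Fin 3 → ℝ) (hT : x 0 + x 1 + x 2 ≠ 0)
    (hdual : ∀ G : MM 3, ∃ y : EE 3, ‖y‖ = 1 ∧ (∀ p ∈ K, ⟪p, y⟫ ≤ 1) ∧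
      (G.trace - (Matrix.diagonal x * G).trace / (Matrix.diagonal x).trace) / 2 ≤ ⟪act G y, y⟫) :
    ∃ z y : EE 3, ‖z‖ = 1 ∧ ‖y‖ = 1 ∧ (∀ p ∈ K, ⟪p, z⟫ ≤ 1) ∧ (∀ p ∈ K, ⟪p, y⟫ ≤ 1) ∧
      VV x ≤ QQ x z y := by
  set r : Fin 3 → ℝ := ![ss x 1 * x 2 + ss x 2 * x 1, ss x 0 * x 2 + ss x 2 * x 0,
    ss x 0 * x 1 + ss x 1 * x 0] with hr
  obtain ⟨z, hz, hzK, h1⟩ := hdual (Matrix.diagonal r)
  rw [trace_tau x hT, inner_diag] at h1
  obtain ⟨y, hy, hyK, h2⟩ := hdual (GG x z)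
  rw [trace_tau x hT, inner_GG] at h2
  refine ⟨z, y, hz, hy, hzK, hyK, ?_⟩
  refine le_trans ?_ h2
  simp only [Matrix.diagonal_apply_eq] at h1
  simp only [hr, Matrix.cons_val_zero, Matrix.cons_val_one, Matrix.cons_val] at h1
  simp only [GG, Matrix.of_apply, Matrix.cons_val', Matrix.cons_val_zero, Matrix.cons_val_one,
    Matrix.cons_val]
  simp only [VV]
  nlinarith

/-- Cross product of Euclidean vectors, in coordinates. -/
def cr (p q : EE 3) : EE 3 :=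
  WithLp.toLp 2 ![p 1 * q 2 - p 2 * q 1, p 2 * q 0 - p 0 * q 2, p 0 * q 1 - p 1 * q 0]

lemma cr_coord0 (p q : EE 3) : cr p q 0 = p 1 * q 2 - p 2 * q 1 := rfl
lemma cr_coord1 (p q : EE 3) : cr p q 1 = p 2 * q 0 - p 0 * q 2 := rfl
lemma cr_coord2 (p q : EE 3) : cr p q 2 = p 0 * q 1 - p 1 * q 0 := rfl

lemma inner_cr_left (p q : EE 3) : ⟪cr p q, p⟫ = 0 := by
  rw [inner_EE3, cr_coord0, cr_coord1, cr_coord2]
  ring

lemma inner_cr_right (p q : EE 3) : ⟪cr p q, q⟫ = 0 := by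
  rw [inner_EE3, cr_coord0, cr_coord1, cr_coord2]
  ring

lemma norm_sq_EE3 (p : EE 3) : ‖p‖ ^ 2 = p 0 ^ 2 + p 1 ^ 2 + p 2 ^ 2 := by
  rw [← real_inner_self_eq_norm_sq, inner_EE3]
  ring

lemma lagrange (p q : EE 3) : ‖cr p q‖ ^ 2 = ‖p‖ ^ 2 * ‖q‖ ^ 2 - ⟪p, q⟫ ^ 2 := by
  rw [norm_sq_EE3, norm_sq_EE3, norm_sq_EE3, inner_EE3, cr_coord0, cr_coord1, cr_coord2]
  ring

/-- The adjoint of the action. -/
lemma inner_act (M : MM 3) (p q : EE 3) : ⟪act M p, q⟫ = ⟪p, act Mᵀ q⟫ := by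
  rw [inner_EE3, inner_EE3, act_coord, act_coord, act_coord, act_coord, act_coord, act_coord]
  simp only [Matrix.transpose_apply]
  ring

/-- The cofactor identity for the cross product. -/
lemma act_cr (A : MM 3) (p q : EE 3) :
    act A (cr (act Aᵀ p) (act Aᵀ q)) = A.det • cr p q := by
  ext i
  rw [act_coord, cr_coord0, cr_coord1, cr_coord2]
  simp only [act_coord, Matrix.transpose_apply, PiLp.smul_apply, smul_eq_mul, Matrix.det_fin_three]
  fin_cases i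
  · simp only [Fin.zero_eta, cr_coord0]
    ring
  · simp only [Fin.mk_one, cr_coord1]
    ring
  · simp only [Fin.reduceFinMk, cr_coord2]
    ring

/-- `QQ` is the squared length of the image of the cross product. -/
lemma norm_act_cr {A : MM 3} {x : Fin 3 → ℝ} (hN : Aᵀ * A = Matrix.diagonal x) (z y : EE 3) :
    ‖act A (cr z y)‖ ^ 2 = QQ x z y := by
  rw [← real_inner_self_eq_norm_sq, inner_act, ← act_mul, hN, real_inner_comm, inner_diag,
    cr_coord0, cr_coord1, cr_coord2]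
  simp only [QQ]

/-- The norm bound for a diagonal `AᵀA`. -/
lemma norm_act_le {A : MM 3} {x : Fin 3 → ℝ} (hN : Aᵀ * A = Matrix.diagonal x) {c : ℝ}
    (hc : ∀ k, x k ≤ c ^ 2) (y : EE 3) : ‖act A y‖ ^ 2 ≤ c ^ 2 * ‖y‖ ^ 2 := by
  rw [← real_inner_self_eq_norm_sq, inner_act, ← act_mul, hN, real_inner_comm, inner_diag,
    norm_sq_EE3]
  have h0 := mul_le_mul_of_nonneg_right (hc 0) (sq_nonneg (y 0))
  have h1 := mul_le_mul_of_nonneg_right (hc 1) (sq_nonneg (y 1))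
  have h2 := mul_le_mul_of_nonneg_right (hc 2) (sq_nonneg (y 2))
  nlinarith

end

end Vale.Agent.Lib.P243S
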