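import Vale.Agent.Lib.P243S.Diag

/-! The half-area bound for bodies of small asymmetry, centered at the origin. -/

namespace Vale.Agent.Lib.P243S

open MeasureTheory Set Real Filter Topology
open scoped RealInnerProductSpace Matrix
open Vale.Agent.Lib.P243 Vale.Agent.Lib.P237.PN

noncomputable section

/-- An orthonormal frame whose third vector is the unit vector along `w`, with coordinates of two
vectors orthogonal to `w`. -/
theorem frame_data {w n n' : EE 3} (hwpos : 0 < ‖w‖) (h1 : ⟪w, n⟫ = 0) (h2 : ⟪w, n'⟫ = 0) :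
    ∃ (b : OrthonormalBasis (Fin 3) ℝ E3) (α β γ δ : ℝ),
      (∀ p : EE 3, ⟪p, n⟫ = ⟪b 0, p⟫ * α + ⟪b 1, p⟫ * β) ∧
      (∀ p : EE 3, ⟪p, n'⟫ = ⟪b 0, p⟫ * γ + ⟪b 1, p⟫ * δ) ∧
      ‖cr n n'‖ = |α * δ - β * γ| := by
  set u : EE 3 := ‖w‖⁻¹ • w with hu
  have hun : ‖u‖ = 1 := by
    rw [hu, norm_smul, norm_inv, norm_norm, inv_mul_cancel₀ hwpos.ne']
  have hon : Orthonormal ℝ (({2} : Set (Fin 3)).domRestrict (fun _ : Fin 3 => u)) := by
    refine ⟨fun _ => hun, fun i j hij => (hij ?_).elim⟩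
    exact Subsingleton.elim i j
  obtain ⟨b, hb⟩ := Orthonormal.exists_orthonormalBasis_extension_of_card_eq (𝕜 := ℝ) (E := E3)
    (ι := Fin 3) (by simp) hon
  have hb2 : b 2 = u := hb 2 (by simp)
  have hun0 : ⟪b 2, n⟫ = 0 := by
    rw [hb2, hu, inner_smul_left, h1, mul_zero]
  have hun1 : ⟪b 2, n'⟫ = 0 := by
    rw [hb2, hu, inner_smul_left, h2, mul_zero]
  refine ⟨b, ⟪b 0, n⟫, ⟪b 1, n⟫, ⟪b 0, n'⟫, ⟪b 1, n'⟫, ?_, ?_, ?_⟩
  · intro p
    have h := b.sum_inner_mul_inner p n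
    rw [Fin.sum_univ_three, hun0, mul_zero, add_zero, real_inner_comm (b 0) p,
      real_inner_comm (b 1) p] at h
    rw [← h]
  · intro p
    have h := b.sum_inner_mul_inner p n'
    rw [Fin.sum_univ_three, hun1, mul_zero, add_zero, real_inner_comm (b 0) p,
      real_inner_comm (b 1) p] at h
    rw [← h]
  · set α := ⟪b 0, n⟫ with hα
    set β := ⟪b 1, n⟫ with hβ
    set γ := ⟪b 0, n'⟫ with hγ
    set δ := ⟪b 1, n'⟫ with hδ
    have hexp : ∀ p : EE 3, ⟪p, n⟫ = ⟪b 0, p⟫ * α + ⟪b 1, p⟫ * β := by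
      intro p
      have h := b.sum_inner_mul_inner p n
      rw [Fin.sum_univ_three, hun0, mul_zero, add_zero, real_inner_comm (b 0) p,
        real_inner_comm (b 1) p] at h
      rw [← h]
    have hexp' : ∀ p : EE 3, ⟪p, n'⟫ = ⟪b 0, p⟫ * γ + ⟪b 1, p⟫ * δ := by
      intro p
      have h := b.sum_inner_mul_inner p n'
      rw [Fin.sum_univ_three, hun1, mul_zero, add_zero, real_inner_comm (b 0) p,
        real_inner_comm (b 1) p] at h
      rw [← h]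
    have hnn : ‖n‖ ^ 2 = α ^ 2 + β ^ 2 := by
      rw [← real_inner_self_eq_norm_sq, hexp n, ← hα, ← hβ]
      ring
    have hnn' : ‖n'‖ ^ 2 = γ ^ 2 + δ ^ 2 := by
      rw [← real_inner_self_eq_norm_sq, hexp' n', ← hγ, ← hδ]
      ring
    have hnm : ⟪n, n'⟫ = α * γ + β * δ := hexp' n
    have h2' : ‖cr n n'‖ ^ 2 = |α * δ - β * γ| ^ 2 := by
      rw [lagrange, hnn, hnn', hnm, sq_abs]
      ring
    exact (pow_left_inj₀ (norm_nonneg _) (abs_nonneg _) two_ne_zero).mp h2'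

/-- The slab inequalities from the contact functionals and the asymmetry. -/
theorem slab_pair {s v : ℝ} (hs : 0 < s) (h1 : v ≤ 1) (h2 : -s⁻¹ * v ≤ 1) : -s ≤ v ∧ v ≤ 1 := by
  refine ⟨?_, h1⟩
  have h3 := mul_le_mul_of_nonneg_left h2 hs.le
  have h4 : s * (-s⁻¹ * v) = -v := by
    field_simp
  rw [h4, mul_one] at h3
  linarith

/-- The shadow is inside the parallelogram. -/
theorem shadow_sub {K : Set E3} {M : MM 3} {s : ℝ} (hs : 0 < s) (hsym : ∀ p ∈ K, (-s⁻¹) • p ∈ K)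
    {z n : EE 3} (hn : n = act Mᵀ z) (hzK : ∀ p ∈ K, ⟪act M p, z⟫ ≤ 1)
    {p : EE 3} (hp : p ∈ K) : -s ≤ ⟪p, n⟫ ∧ ⟪p, n⟫ ≤ 1 := by
  have hz1 := hzK p hp
  have hz2 := hzK _ (hsym p hp)
  rw [act_smul, real_inner_smul_left] at hz2
  rw [inner_act, ← hn] at hz1 hz2
  exact slab_pair hs hz1 hz2

/-- The shadow along a well chosen direction lies in a small parallelogram. -/
theorem shadow_bound {K : Set E3} {A M : MM 3} {x : Fin 3 → ℝ} (hMA : M * A = 1) (h0 : A.det ≠ 0)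
    (hN : Aᵀ * A = Matrix.diagonal x) {s : ℝ} (hs : 0 < s) (hsym : ∀ p ∈ K, (-s⁻¹) • p ∈ K)
    {z y : EE 3} (hzK : ∀ p ∈ K, ⟪act M p, z⟫ ≤ 1) (hyK : ∀ p ∈ K, ⟪act M p, y⟫ ≤ 1)
    (hw0 : 0 < QQ x z y) :
    ∃ f : Fin 3 → E3, Orthonormal ℝ f ∧
      volume ((fun p => ((inner ℝ (f 0) p, inner ℝ (f 1) p) : Pl)) '' K)
        ≤ ENNReal.ofReal ((1 + s) ^ 2 * |A.det| / √(QQ x z y)) := by
  set n : EE 3 := act Mᵀ z with hn
  set n' : EE 3 := act Mᵀ y with hn'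
  have hAT : Aᵀ * Mᵀ = 1 := by
    rw [← Matrix.transpose_mul, hMA, Matrix.transpose_one]
  have hzn : act Aᵀ n = z := by rw [hn, ← act_mul, hAT, act_one]
  have hyn : act Aᵀ n' = y := by rw [hn', ← act_mul, hAT, act_one]
  set w : EE 3 := act A (cr z y) with hw
  have hwc : w = A.det • cr n n' := by
    have h1 := act_cr A n n'
    rwa [hzn, hyn] at h1
  have hwQ : ‖w‖ ^ 2 = QQ x z y := norm_act_cr hN z y
  have hwpos : 0 < ‖w‖ := by
    refine lt_of_le_of_ne (norm_nonneg _) (fun h => ?_)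
    rw [← h] at hwQ
    simp only [ne_eq, OfNat.ofNat_ne_zero, not_false_eq_true, zero_pow] at hwQ
    exact hw0.ne hwQ
  have hMw : act M w = cr z y := by rw [hw, ← act_mul, hMA, act_one]
  have hun0 : ⟪w, n⟫ = 0 := by
    rw [hn, ← inner_act, hMw, inner_cr_left]
  have hun1 : ⟪w, n'⟫ = 0 := by
    rw [hn', ← inner_act, hMw, inner_cr_right]
  obtain ⟨b, α, β, γ, δ, hexp, hexp', hD2⟩ := frame_data hwpos hun0 hun1
  have hwD : ‖w‖ = |A.det| * |α * δ - β * γ| := by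
    rw [hwc, norm_smul, Real.norm_eq_abs, hD2]
  have hD0 : α * δ - β * γ ≠ 0 := by
    intro h
    rw [h, abs_zero, mul_zero] at hwD
    exact hwpos.ne' hwD
  have hdetpos : 0 < |A.det| := abs_pos.mpr h0
  refine ⟨⇑b, b.orthonormal, ?_⟩
  have hsub : (fun p => ((⟪b 0, p⟫, ⟪b 1, p⟫) : Pl)) '' K ⊆
      {q : Pl | (-s ≤ α * q.1 + β * q.2 ∧ α * q.1 + β * q.2 ≤ 1) ∧
        (-s ≤ γ * q.1 + δ * q.2 ∧ γ * q.1 + δ * q.2 ≤ 1)} := by
    rintro _ ⟨p, hp, rfl⟩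
    have hz3 := shadow_sub hs hsym hn hzK hp
    have hy3 := shadow_sub hs hsym hn' hyK hp
    rw [hexp] at hz3
    rw [hexp'] at hy3
    simp only [mem_ofPred_eq]
    rw [mul_comm α, mul_comm β, mul_comm γ, mul_comm δ]
    exact ⟨hz3, hy3⟩
  refine (measure_mono hsub).trans ?_
  rw [volume_parallelogram α β γ δ (-s) 1 hD0 (by linarith)]
  apply ENNReal.ofReal_le_ofReal
  have hsq : √(QQ x z y) = ‖w‖ := by
    rw [← hwQ, Real.sqrt_sq (norm_nonneg _)]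
  rw [hsq, hwD]
  have hDa : 0 < |α * δ - β * γ| := abs_pos.mpr hD0
  apply le_of_eq
  field_simp
  ring

end

end Vale.Agent.Lib.P243S
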