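import Vale.Agent.Lib.P243S.Xray

/-! Coverings by cylinders against the Archimedes weight of an ellipsoid. -/

namespace Vale.Agent.Lib.P243S

open MeasureTheory Set Real
open Vale.Agent.Lib.P243 Vale.Agent.Lib.P237.PN

noncomputable section

/-- The exact X-ray through the open ball. -/
lemma xray_eq (y₀ v : E3) (hv : v ≠ 0) (hα : 0 < 1 - ‖y₀‖ ^ 2 + (inner ℝ y₀ v / ‖v‖) ^ 2) :
    ∫⁻ t : ℝ, wt (y₀ + t • v) = ENNReal.ofReal (π / ‖v‖) := by
  have hβ : 0 < ‖v‖ := norm_pos_iff.mpr hv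
  set β := ‖v‖ with hβd
  set γ := inner ℝ y₀ v / β with hγ
  set α := 1 - ‖y₀‖ ^ 2 + γ ^ 2 with hαd
  have h1 : ∀ t : ℝ, wt (y₀ + t • v) = ENNReal.ofReal (√(α - (β * t + γ) ^ 2))⁻¹ := by
    intro t
    unfold wt
    congr 3
    rw [norm_add_sq_real, inner_smul_right, norm_smul, Real.norm_eq_abs, mul_pow, sq_abs, hαd, hγ]
    field_simp
    ring
  simp_rw [h1]
  exact line_integral hα hβ

lemma frame_symm (u : Fin 3 → E3) (hu : Orthonormal ℝ u) (y : Pl) (z : ℝ) :
    (frameEquiv u hu).symm (y, z) = y.1 • u 0 + y.2 • u 1 + z • u 2 := by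
  rw [LinearEquiv.symm_apply_eq, frameEquiv_apply]
  have h01 : inner ℝ (u 0) (u 1) = 0 := hu.2 (by decide)
  have h02 : inner ℝ (u 0) (u 2) = 0 := hu.2 (by decide)
  have h10 : inner ℝ (u 1) (u 0) = 0 := hu.2 (by decide)
  have h12 : inner ℝ (u 1) (u 2) = 0 := hu.2 (by decide)
  have h20 : inner ℝ (u 2) (u 0) = 0 := hu.2 (by decide)
  have h21 : inner ℝ (u 2) (u 1) = 0 := hu.2 (by decide)
  simp [inner_add_right, inner_smul_right, h01, h02, h10, h12, h20, h21, hu.1 0, hu.1 1, hu.1 2]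

/-- Fubini in the coordinates of a frame. -/
lemma lintegral_frame (u : Fin 3 → E3) (hu : Orthonormal ℝ u) {F : E3 → ENNReal} (hF : Measurable F)
    {S : Set Pl} (hS : MeasurableSet S) :
    ∫⁻ x in (fun x => ((inner ℝ (u 0) x, inner ℝ (u 1) x) : Pl)) ⁻¹' S, F x
      = ∫⁻ y in S, ∫⁻ z : ℝ, F (y.1 • u 0 + y.2 • u 1 + z • u 2) := by
  set Θ := frameEquiv u hu with hΘ
  have hmp : MeasurePreserving Θ volume volume := measurePreserving_frameEquiv u hu
  have hcs : Continuous Θ.symm := continuous_linearEquiv _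
  have hFs : Measurable (fun p : Pl × ℝ => F (Θ.symm p)) := hF.comp hcs.measurable
  have e1 : (fun x => ((inner ℝ (u 0) x, inner ℝ (u 1) x) : Pl)) ⁻¹' S = Θ ⁻¹' (S ×ˢ univ) := by
    ext x
    simp [hΘ, frameEquiv_apply]
  have e2 : ∫⁻ x in Θ ⁻¹' (S ×ˢ univ), F x
      = ∫⁻ x in Θ ⁻¹' (S ×ˢ univ), (fun p : Pl × ℝ => F (Θ.symm p)) (Θ x) := by
    apply lintegral_congr
    intro x
    show F x = F (Θ.symm (Θ x))
    rw [LinearEquiv.symm_apply_apply]
  rw [e1, e2, hmp.setLIntegral_comp_preimage (hS.prod MeasurableSet.univ) hFs,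
    Measure.volume_eq_prod, setLIntegral_prod _ hFs.aemeasurable]
  apply lintegral_congr
  intro y
  simp only [Measure.restrict_univ]
  apply lintegral_congr
  intro z
  rw [hΘ, frame_symm]

/-- The open unit disc has area `π`. -/
lemma volume_disc : volume {y : Pl | y.1 ^ 2 + y.2 ^ 2 < 1} = ENNReal.ofReal π := by
  have hm : MeasurableSet {y : Pl | y.1 ^ 2 + y.2 ^ 2 < 1} := by
    apply measurableSet_lt <;> fun_prop
  have h1 := Complex.volume_preserving_equiv_real_prod.measure_preimage hm.nullMeasurableSet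
  rw [← h1]
  have h2 : Complex.measurableEquivRealProd ⁻¹' {y : Pl | y.1 ^ 2 + y.2 ^ 2 < 1}
      = Metric.ball (0 : ℂ) 1 := by
    ext z
    simp only [mem_preimage, mem_setOf_eq, Complex.measurableEquivRealProd_apply,
      Complex.equivRealProd_apply, mem_ball_zero_iff]
    have h3 : ‖z‖ ^ 2 = z.re ^ 2 + z.im ^ 2 := by
      rw [Complex.sq_norm, Complex.normSq_apply]
      ring
    rw [← h3]
    constructor
    · intro h
      nlinarith [norm_nonneg z]
    · intro h
      nlinarith [norm_nonneg z]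
  rw [h2, Complex.volume_ball]
  have h4 : ((NNReal.pi : NNReal) : ENNReal) = ENNReal.ofReal π := by
    rw [← ENNReal.ofReal_coe_nnreal]
    simp
  simp [h4]

/-- The X-ray of the weight along the axis of a frame. -/
lemma xray_frame (u : Fin 3 → E3) (hon : Orthonormal ℝ u) (y : Pl) (hy : y.1 ^ 2 + y.2 ^ 2 < 1) :
    ∫⁻ z : ℝ, wt (y.1 • u 0 + y.2 • u 1 + z • u 2) = ENNReal.ofReal π := by
  have hn : ‖u 2‖ = 1 := hon.1 2
  have hv : u 2 ≠ 0 := by
    intro h
    rw [h] at hn
    simp at hn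
  have h01 : inner ℝ (u 0) (u 1) = (0 : ℝ) := hon.2 (by decide)
  have h02 : inner ℝ (u 0) (u 2) = (0 : ℝ) := hon.2 (by decide)
  have h12 : inner ℝ (u 1) (u 2) = (0 : ℝ) := hon.2 (by decide)
  have hp : ‖y.1 • u 0 + y.2 • u 1‖ ^ 2 = y.1 ^ 2 + y.2 ^ 2 := by
    rw [norm_add_sq_real, inner_smul_left, inner_smul_right, h01, norm_smul, norm_smul, hon.1 0,
      hon.1 1]
    simp
  have hi : inner ℝ (y.1 • u 0 + y.2 • u 1) (u 2) = (0 : ℝ) := by
    rw [inner_add_left, inner_smul_left, inner_smul_left, h02, h12]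
    simp
  have h3 := xray_eq (y.1 • u 0 + y.2 • u 1) (u 2) hv (by
    rw [hp, hi]
    norm_num
    linarith)
  rw [hn, div_one] at h3
  exact h3

/-- The mass of the Archimedes weight. -/
lemma mass_frame (u : Fin 3 → E3) (hon : Orthonormal ℝ u) :
    ENNReal.ofReal (π ^ 2) ≤ ∫⁻ x : E3, wt x := by
  have h1 := lintegral_frame u hon wt_measurable (S := univ) MeasurableSet.univ
  rw [preimage_univ, Measure.restrict_univ, Measure.restrict_univ] at h1
  rw [h1]
  have hm : MeasurableSet {y : Pl | y.1 ^ 2 + y.2 ^ 2 < 1} := by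
    apply measurableSet_lt <;> fun_prop
  have h2 : ENNReal.ofReal (π ^ 2) = ENNReal.ofReal π * volume {y : Pl | y.1 ^ 2 + y.2 ^ 2 < 1} := by
    rw [volume_disc, ← ENNReal.ofReal_mul pi_pos.le]
    congr 1
    ring
  have h3 : ∫⁻ _y in {y : Pl | y.1 ^ 2 + y.2 ^ 2 < 1}, ENNReal.ofReal π
      = ENNReal.ofReal π * volume {y : Pl | y.1 ^ 2 + y.2 ^ 2 < 1} := by
    rw [lintegral_const, Measure.restrict_apply MeasurableSet.univ, univ_inter]
  have h4 : ∫⁻ _y in {y : Pl | y.1 ^ 2 + y.2 ^ 2 < 1}, ENNReal.ofReal π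
      = ∫⁻ y in {y : Pl | y.1 ^ 2 + y.2 ^ 2 < 1}, ∫⁻ z : ℝ, wt (y.1 • u 0 + y.2 • u 1 + z • u 2) :=
    setLIntegral_congr_fun hm fun y hy => (xray_frame u hon y hy).symm
  rw [h2, ← h3, h4]
  exact setLIntegral_le_lintegral _ _

lemma mass_wt : ENNReal.ofReal (π ^ 2) ≤ ∫⁻ x : E3, wt x :=
  mass_frame _ (EuclideanSpace.basisFun (Fin 3) ℝ).orthonormal

/-- The action of a matrix as a linear map. -/
lemma act_eq_lin (M : MM 3) (x : E3) : act M x = Matrix.toEuclideanLin M x := by
  simp [act, Matrix.toEuclideanLin_apply]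

lemma det_lin (M : MM 3) : LinearMap.det (Matrix.toEuclideanLin M) = M.det := by
  rw [Matrix.toEuclideanLin_eq_toLin, LinearMap.det_toLin]

lemma act_measurable (M : MM 3) : Measurable (act M) := (act_continuous M).measurable

/-- Linear change of variables for the weight. -/
lemma lintegral_wt_act (M : MM 3) (hM : M.det ≠ 0) :
    ∫⁻ x : E3, wt (act M x) = ENNReal.ofReal |M.det⁻¹| * ∫⁻ x : E3, wt x := by
  have h1 := Measure.map_linearMap_addHaar_eq_smul_addHaar (E := E3) (μ := volume)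
    (f := Matrix.toEuclideanLin M) (by rw [det_lin]; exact hM)
  rw [det_lin] at h1
  have h2 : ∫⁻ x : E3, wt x ∂(Measure.map (Matrix.toEuclideanLin M) volume)
      = ∫⁻ x : E3, wt (Matrix.toEuclideanLin M x) :=
    lintegral_map wt_measurable (LinearMap.continuous_of_finiteDimensional _).measurable
  rw [h1, lintegral_smul_measure] at h2
  simp_rw [act_eq_lin]
  rw [← h2]
  rfl

/-- The covering inequality for the Archimedes weight of the ellipsoid `A (ball)`. -/
theorem cover_bound {ι : Type*} [Fintype ι] {K : Set E3} {A M : MM 3} (hAM : A * M = 1)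
    (hin : ∀ x : E3, ‖x‖ ≤ 1 → act A x ∈ K)
    (e : ι → Fin 3 → E3) (he : ∀ i, Orthonormal ℝ (e i)) (B : ι → Set Pl)
    (hcov : ∀ x ∈ K, ∃ i, ((inner ℝ (e i 0) x, inner ℝ (e i 1) x) : Pl) ∈ B i)
    {c : ℝ} (hc : ∀ v : E3, ‖v‖ ≤ c * ‖act M v‖) :
    ENNReal.ofReal (π ^ 2 * |A.det|) ≤ (∑ i, volume (B i)) * ENNReal.ofReal (π * c) := by
  have hdet : A.det * M.det = 1 := by rw [← Matrix.det_mul, hAM, Matrix.det_one]
  have hM0 : M.det ≠ 0 := by
    intro h
    rw [h, mul_zero] at hdet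
    exact zero_ne_one hdet
  have hA0 : A.det ≠ 0 := by
    intro h
    rw [h, zero_mul] at hdet
    exact zero_ne_one hdet
  have hMA : M⁻¹ = A := Matrix.inv_eq_left_inv hAM
  have hinv : M.det⁻¹ = A.det := by
    field_simp
    linarith
  set F : E3 → ENNReal := fun x => wt (act M x) with hF
  have hFm : Measurable F := wt_measurable.comp (act_measurable M)
  have hmass : ENNReal.ofReal (π ^ 2 * |A.det|) ≤ ∫⁻ x, F x := by
    rw [hF, lintegral_wt_act M hM0, hinv, mul_comm (π ^ 2), ENNReal.ofReal_mul (abs_nonneg _)]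
    gcongr
    exact mass_wt
  set C : ι → Set E3 := fun i =>
    (fun x => ((inner ℝ (e i 0) x, inner ℝ (e i 1) x) : Pl)) ⁻¹' toMeasurable volume (B i) with hC
  have hCm : ∀ i, MeasurableSet (C i) := by
    intro i
    apply (measurableSet_toMeasurable _ _).preimage
    fun_prop
  have hpt : ∀ x, F x ≤ ∑ i, (C i).indicator F x := by
    intro x
    by_cases h0 : F x = 0
    · rw [h0]
      exact zero_le
    · have hlt : ‖act M x‖ < 1 := by
        by_contra hge
        exact h0 (wt_eq_zero (not_lt.mp hge))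
      have hxK : x ∈ K := by
        have h1 := hin _ hlt.le
        rwa [← act_mul, hAM, act_one] at h1
      obtain ⟨i, hi⟩ := hcov x hxK
      have hmem : x ∈ C i := subset_toMeasurable _ _ hi
      calc F x = (C i).indicator F x := (indicator_of_mem hmem _).symm
        _ ≤ ∑ i, (C i).indicator F x :=
          Finset.single_le_sum (f := fun i => (C i).indicator F x) (fun _ _ => zero_le)
            (Finset.mem_univ i)
  have hone : ∀ i, ∫⁻ x in C i, F x ≤ volume (B i) * ENNReal.ofReal (π * c) := by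
    intro i
    have hn : ‖e i 2‖ = 1 := (he i).1 2
    have hcpos : 1 ≤ c * ‖act M (e i 2)‖ := by
      have := hc (e i 2)
      rwa [hn] at this
    have hmn : 0 < ‖act M (e i 2)‖ := by
      by_contra hnp
      have h5 : ‖act M (e i 2)‖ = 0 := le_antisymm (not_lt.mp hnp) (norm_nonneg _)
      rw [h5, mul_zero] at hcpos
      linarith
    have hv : act M (e i 2) ≠ 0 := norm_pos_iff.mp hmn
    have hc0 : 0 < c := by
      by_contra hnp
      have := mul_nonpos_of_nonpos_of_nonneg (not_lt.mp hnp) hmn.le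
      linarith
    rw [hC]
    simp only
    rw [lintegral_frame (e i) (he i) hFm (measurableSet_toMeasurable _ _)]
    have hb : ∀ y : Pl, ∫⁻ z : ℝ, F (y.1 • e i 0 + y.2 • e i 1 + z • e i 2)
        ≤ ENNReal.ofReal (π * c) := by
      intro y
      have h6 : ∀ z : ℝ, F (y.1 • e i 0 + y.2 • e i 1 + z • e i 2)
          = wt (act M (y.1 • e i 0 + y.2 • e i 1) + z • act M (e i 2)) := by
        intro z
        simp only [hF]
        rw [act_add M _ (z • e i 2), act_smul]
      simp_rw [h6]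
      refine (xray_le _ _ hv).trans (ENNReal.ofReal_le_ofReal ?_)
      rw [div_le_iff₀ hmn]
      nlinarith [pi_pos]
    calc ∫⁻ y in toMeasurable volume (B i), ∫⁻ z : ℝ, F (y.1 • e i 0 + y.2 • e i 1 + z • e i 2)
        ≤ ∫⁻ _y in toMeasurable volume (B i), ENNReal.ofReal (π * c) := lintegral_mono fun y => hb y
      _ = volume (B i) * ENNReal.ofReal (π * c) := by
        rw [lintegral_const, Measure.restrict_apply MeasurableSet.univ, univ_inter,
          measure_toMeasurable, mul_comm]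
  calc ENNReal.ofReal (π ^ 2 * |A.det|) ≤ ∫⁻ x, F x := hmass
    _ ≤ ∫⁻ x, ∑ i, (C i).indicator F x := lintegral_mono hpt
    _ = ∑ i, ∫⁻ x, (C i).indicator F x := by
        rw [lintegral_finset_sum]
        intro i _
        exact hFm.indicator (hCm i)
    _ = ∑ i, ∫⁻ x in C i, F x := by
        apply Finset.sum_congr rfl
        intro i _
        rw [lintegral_indicator (hCm i)]
    _ ≤ ∑ i, volume (B i) * ENNReal.ofReal (π * c) := Finset.sum_le_sum fun i _ => hone i
    _ = (∑ i, volume (B i)) * ENNReal.ofReal (π * c) := by rw [Finset.sum_mul]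

end

end Vale.Agent.Lib.P243S
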