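import Vale.Agent.Lib.P243S.Algebra

/-! The extremal ellipsoid in a principal frame, and its normalized first order test. -/

namespace Vale.Agent.Lib.P243S

open MeasureTheory Set Real Filter Topology
open scoped RealInnerProductSpace Matrix
open Vale.Agent.Lib.P243 Vale.Agent.Lib.P237.PN

noncomputable section

lemma norm_act_orth {P : MM 3} (hP : Pᵀ * P = 1) (y : EE 3) : ‖act P y‖ = ‖y‖ := by
  have h : ‖act P y‖ ^ 2 = ‖y‖ ^ 2 := by
    rw [← real_inner_self_eq_norm_sq, inner_act, ← act_mul, hP, act_one, real_inner_self_eq_norm_sq]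
  exact (pow_left_inj₀ (norm_nonneg _) (norm_nonneg _) two_ne_zero).mp h

/-- The extremal ellipsoid with diagonal `AᵀA`. -/
theorem exists_opt_diag {K : Set (EE 3)} (hK : IsCompact K) {r : ℝ} (hr : 0 < r)
    (hball : Metric.closedBall (0 : EE 3) r ⊆ K) :
    ∃ (A : MM 3) (x : Fin 3 → ℝ), A.det ≠ 0 ∧ (∀ y : EE 3, ‖y‖ ≤ 1 → act A y ∈ K) ∧
      (∀ S : MM 3, (∀ y : EE 3, ‖y‖ ≤ 1 → act S y ∈ K) →
        S.det ^ 2 * frob A ≤ A.det ^ 2 * frob S) ∧
      Aᵀ * A = Matrix.diagonal x ∧ ∀ k, 0 ≤ x k := by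
  obtain ⟨A₀, h0, hA, hmax⟩ := exists_opt hK hr hball
  set N₀ : MM 3 := A₀ᵀ * A₀ with hN₀
  have hN : N₀.IsHermitian := by
    have h := Matrix.isHermitian_conjTranspose_mul_self A₀
    simpa [Matrix.conjTranspose_eq_transpose_of_trivial] using h
  set U := hN.eigenvectorUnitary with hU
  set P : MM 3 := (U : MM 3) with hPd
  have hs : star P = Pᵀ := by
    rw [Matrix.star_eq_conjTranspose, Matrix.conjTranspose_eq_transpose_of_trivial]
  have hP : Pᵀ * P = 1 := by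
    rw [← hs]
    exact Unitary.coe_star_mul_self U
  have hP' : P * Pᵀ = 1 := mul_eq_one_comm.mp hP
  have hdiag : Pᵀ * N₀ * P = Matrix.diagonal hN.eigenvalues := by
    have h := hN.conjStarAlgAut_star_eigenvectorUnitary
    rw [Unitary.conjStarAlgAut_star_apply] at h
    rw [← hs]
    rw [h]
    congr 1
  set A : MM 3 := A₀ * P with hAd
  have hN1 : Aᵀ * A = Matrix.diagonal hN.eigenvalues := by
    rw [← hdiag, hAd, Matrix.transpose_mul, hN₀]
    simp only [Matrix.mul_assoc]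
  have hdP : P.det ^ 2 = 1 := by
    have h := congrArg Matrix.det hP
    rw [Matrix.det_mul, Matrix.det_transpose, Matrix.det_one] at h
    nlinarith
  have hdA : A.det ^ 2 = A₀.det ^ 2 := by
    rw [hAd, Matrix.det_mul, mul_pow, hdP, mul_one]
  have hfA : frob A = frob A₀ := by
    have h1 : frob A = (Pᵀ * N₀ * P).trace := by
      rw [frob, hAd, Matrix.transpose_mul, hN₀]
      simp only [Matrix.mul_assoc]
    rw [h1, Matrix.trace_mul_comm, ← Matrix.mul_assoc, hP', Matrix.one_mul]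
    rfl
  refine ⟨A, hN.eigenvalues, ?_, ?_, ?_, hN1, ?_⟩
  · intro h
    rw [h] at hdA
    have : A₀.det ^ 2 = 0 := by rw [← hdA]; ring
    exact h0 (pow_eq_zero_iff two_ne_zero |>.mp this)
  · intro y hy
    rw [hAd, act_mul]
    exact hA _ (by rwa [norm_act_orth hP])
  · intro S hS
    rw [hfA, hdA]
    exact hmax S hS
  · intro k
    have h1 : (Aᵀ * A) k k = hN.eigenvalues k := by
      rw [hN1, Matrix.diagonal_apply_eq]
    rw [← h1, Matrix.mul_apply]
    apply Finset.sum_nonneg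
    intro i _
    rw [Matrix.transpose_apply]
    exact mul_self_nonneg _

/-- The extremal ellipsoid and two contact directions. -/
theorem contact_pair {K : Set (EE 3)} (hK : IsCompact K) (hKc : Convex ℝ K) {r : ℝ} (hr : 0 < r)
    (hball : Metric.closedBall (0 : EE 3) r ⊆ K) :
    ∃ (A M : MM 3) (x : Fin 3 → ℝ), A * M = 1 ∧ M * A = 1 ∧ A.det ≠ 0 ∧
      (∀ y : EE 3, ‖y‖ ≤ 1 → act A y ∈ K) ∧ Aᵀ * A = Matrix.diagonal x ∧ (∀ k, 0 ≤ x k) ∧
      0 < x 0 + x 1 + x 2 ∧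
      ∃ z y : EE 3, ‖z‖ = 1 ∧ ‖y‖ = 1 ∧ (∀ p ∈ K, ⟪act M p, z⟫ ≤ 1) ∧ (∀ p ∈ K, ⟪act M p, y⟫ ≤ 1) ∧
        VV x ≤ QQ x z y := by
  obtain ⟨A, x, h0, hA, hmax, hN, hx⟩ := exists_opt_diag hK hr hball
  have hunit : IsUnit A.det := isUnit_iff_ne_zero.mpr h0
  have hAM : A * A⁻¹ = 1 := Matrix.mul_nonsing_inv A hunit
  have hMA : A⁻¹ * A = 1 := Matrix.nonsing_inv_mul A hunit
  set M := A⁻¹ with hM
  have htr : (Matrix.diagonal x).trace = x 0 + x 1 + x 2 := by
    simp [Matrix.trace, Fin.sum_univ_three]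
  have hfr : frob A = x 0 + x 1 + x 2 := by
    rw [frob, hN, htr]
  have hT : 0 < x 0 + x 1 + x 2 := by
    rw [← hfr]
    refine lt_of_le_of_ne (frob_nonneg A) ?_
    intro hf
    have h1 := det_sq_le A
    rw [← hf] at h1
    have h2 : A.det ^ 2 ≤ 0 := by simpa using h1
    exact h0 (pow_eq_zero_iff two_ne_zero |>.mp (le_antisymm h2 (sq_nonneg _)))
  set K' : Set (EE 3) := act M '' K with hK'
  have hK'c : IsCompact K' := hK.image (act_continuous M)
  have hK'v : Convex ℝ K' := by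
    have h1 := hKc.linear_image (Matrix.toEuclideanLin M)
    have h2 : (Matrix.toEuclideanLin M : EE 3 →ₗ[ℝ] EE 3) '' K = K' := by
      rw [hK']
      apply image_congr
      intro p _
      exact (act_eq_lin M p).symm
    rwa [h2] at h1
  have hK'b : Metric.closedBall (0 : EE 3) 1 ⊆ K' := by
    intro y hy
    refine ⟨act A y, hA y (by simpa using hy), ?_⟩
    rw [← act_mul, hMA, act_one]
  have hmax' : ∀ S : MM 3, (∀ y : EE 3, ‖y‖ ≤ 1 → act S y ∈ K') →
      S.det ^ 2 * (Matrix.diagonal x).trace ≤ (Sᵀ * Matrix.diagonal x * S).trace := by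
    intro S hS
    have h1 : ∀ y : EE 3, ‖y‖ ≤ 1 → act (A * S) y ∈ K := by
      intro y hy
      obtain ⟨p, hp, he⟩ := hS y hy
      rw [act_mul, ← he, ← act_mul, hAM, act_one]
      exact hp
    have h2 := hmax _ h1
    have h3 : frob (A * S) = (Sᵀ * Matrix.diagonal x * S).trace := by
      rw [frob, ← hN, Matrix.transpose_mul]
      simp only [Matrix.mul_assoc]
    rw [h3, Matrix.det_mul, mul_pow, hfr] at h2
    rw [htr]
    have h4 : 0 < A.det ^ 2 := by positivity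
    have h5 : A.det ^ 2 * (S.det ^ 2 * (x 0 + x 1 + x 2))
        ≤ A.det ^ 2 * (Sᵀ * Matrix.diagonal x * S).trace := by
      calc A.det ^ 2 * (S.det ^ 2 * (x 0 + x 1 + x 2))
          = A.det ^ 2 * S.det ^ 2 * (x 0 + x 1 + x 2) := by ring
        _ ≤ A.det ^ 2 * (Sᵀ * Matrix.diagonal x * S).trace := h2
    exact le_of_mul_le_mul_left h5 h4
  have hdual := dual_test hK'c hK'v hK'b (N := Matrix.diagonal x) (Matrix.diagonal_transpose x)
    (by rw [htr]; exact hT) hmax'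
  obtain ⟨z, y, hz, hy, hzK, hyK, hQ⟩ := pair_test (K := K') x hT.ne' hdual
  exact ⟨A, M, x, hAM, hMA, h0, hA, hN, hx, hT, z, y, hz, hy,
    fun p hp => hzK _ ⟨p, hp, rfl⟩, fun p hp => hyK _ ⟨p, hp, rfl⟩, hQ⟩

/-- Area of a parallelogram. -/
lemma volume_parallelogram (α β γ δ l h : ℝ) (hD : α * δ - β * γ ≠ 0) (hlh : l ≤ h) :
    volume {y : Pl | (l ≤ α * y.1 + β * y.2 ∧ α * y.1 + β * y.2 ≤ h) ∧
        (l ≤ γ * y.1 + δ * y.2 ∧ γ * y.1 + δ * y.2 ≤ h)}
      = ENNReal.ofReal ((h - l) ^ 2 / |α * δ - β * γ|) := by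
  set L : Pl →ₗ[ℝ] Pl := Matrix.toLin (Module.Basis.finTwoProd ℝ) (Module.Basis.finTwoProd ℝ)
    !![α, β; γ, δ] with hL
  have hdet : LinearMap.det L = α * δ - β * γ := by
    rw [hL, LinearMap.det_toLin, Matrix.det_fin_two_of]
  have hset : {y : Pl | (l ≤ α * y.1 + β * y.2 ∧ α * y.1 + β * y.2 ≤ h) ∧
        (l ≤ γ * y.1 + δ * y.2 ∧ γ * y.1 + δ * y.2 ≤ h)} = L ⁻¹' (Icc l h ×ˢ Icc l h) := by
    ext y
    simp only [mem_setOf_eq, mem_preimage, mem_prod, mem_Icc, hL, Matrix.toLin_finTwoProd_apply]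
  rw [hset, Measure.addHaar_preimage_linearMap volume (by rw [hdet]; exact hD), hdet,
    Measure.volume_eq_prod, Measure.prod_prod, Real.volume_Icc]
  rw [← ENNReal.ofReal_mul (sub_nonneg.mpr hlh), ← ENNReal.ofReal_mul (abs_nonneg _)]
  congr 1
  rw [abs_inv]
  field_simp

end

end Vale.Agent.Lib.P243S
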