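import Vale.Agent.Lib.P243S.Core
import Vale.Agent.Lib.P243S.Cover

/-! The half-area bound for bodies of small asymmetry. -/

namespace Vale.Agent.Lib.P243S

open MeasureTheory Set Real Filter Topology
open scoped RealInnerProductSpace Matrix
open Vale.Agent.Lib.P243 Vale.Agent.Lib.P237.PN

noncomputable section

/-- The numeric comparison. -/
lemma numeric_ratio {c Q d : ℝ} (hc : 0 < c) (hQ : (41 / 100) * c ^ 2 ≤ Q) (hd : 0 ≤ d) :
    2 * d / √Q * (π * c) ≤ π ^ 2 * d := by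
  have h64 : (64 / 100) * c ≤ √Q := by
    apply Real.le_sqrt_of_sq_le
    nlinarith [sq_nonneg c]
  have hQ0 : 0 < √Q := lt_of_lt_of_le (by positivity) h64
  have hpi : 3.14 < π := Real.pi_gt_d2
  have h2 : 2 * c ≤ π * √Q := by
    have h3 : π * ((64 / 100) * c) ≤ π * √Q :=
      mul_le_mul_of_nonneg_left h64 pi_pos.le
    nlinarith
  have h4 : 2 * d / √Q * (π * c) = (π * d / √Q) * (2 * c) := by
    field_simp
  rw [h4]
  have h5 : (π * d / √Q) * (2 * c) ≤ (π * d / √Q) * (π * √Q) :=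
    mul_le_mul_of_nonneg_left h2 (by positivity)
  refine h5.trans (le_of_eq ?_)
  field_simp

/-- The centered form of the half-area bound. -/
theorem core {K : Set E3} (hK : IsCompact K) (hKc : Convex ℝ K) {r : ℝ} (hr : 0 < r)
    (hball : Metric.closedBall (0 : E3) r ⊆ K) {s : ℝ} (hs : 0 < s)
    (hsym : ∀ p ∈ K, (-s⁻¹) • p ∈ K)
    {ι : Type*} [Fintype ι] (e : ι → Fin 3 → E3) (he : ∀ i, Orthonormal ℝ (e i)) (B : ι → Set Pl)
    (hcov : ∀ x ∈ K, ∃ i, ((inner ℝ (e i 0) x, inner ℝ (e i 1) x) : Pl) ∈ B i) :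
    ∃ f : Fin 3 → E3, Orthonormal ℝ f ∧
      ENNReal.ofReal (2 / (1 + s) ^ 2) *
        volume ((fun p => ((inner ℝ (f 0) p, inner ℝ (f 1) p) : Pl)) '' K)
        ≤ ∑ i, volume (B i) := by
  obtain ⟨A, M, x, hAM, hMA, h0, hA, hN, hx, hT, z, y, -, -, hzK, hyK, hQ⟩ :=
    contact_pair hK hKc hr hball
  obtain ⟨k, hk⟩ := Finite.exists_max x
  have hxk : 0 < x k := by
    by_contra hneg
    have h0' : x k ≤ 0 := not_lt.mp hneg
    have := hk 0
    have := hk 1
    have := hk 2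
    linarith
  set c := √(x k) with hc
  have hcpos : 0 < c := Real.sqrt_pos.mpr hxk
  have hc2 : c ^ 2 = x k := Real.sq_sqrt hxk.le
  have hle : ∀ j, x j ≤ c ^ 2 := fun j => by rw [hc2]; exact hk j
  have hcM : ∀ v : E3, ‖v‖ ≤ c * ‖act M v‖ := by
    intro v
    have h1 := norm_act_le hN hle (act M v)
    rw [← act_mul, hAM, act_one, ← mul_pow] at h1
    exact (pow_le_pow_iff_left₀ (norm_nonneg _) (by positivity) two_ne_zero).mp h1
  have hcover := cover_bound hAM hA e he B hcov hcM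
  have hV := VV_ge x hx hT k
  have hQ' : (41 / 100) * c ^ 2 ≤ QQ x z y := by
    rw [hc2]
    exact hV.trans hQ
  have hQpos : 0 < QQ x z y := lt_of_lt_of_le (by positivity) hQ'
  obtain ⟨f, hf, hvol⟩ := shadow_bound hMA h0 hN hs hsym hzK hyK hQpos
  refine ⟨f, hf, ?_⟩
  have hs1 : 0 < 1 + s := by linarith
  have hdet : 0 ≤ |A.det| := abs_nonneg _
  have hq0 : 0 < √(QQ x z y) := Real.sqrt_pos.mpr hQpos
  have hstep : ENNReal.ofReal (2 / (1 + s) ^ 2) *
      volume ((fun p => ((inner ℝ (f 0) p, inner ℝ (f 1) p) : Pl)) '' K)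
      ≤ ENNReal.ofReal (2 * |A.det| / √(QQ x z y)) := by
    refine (mul_le_mul_right hvol _).trans ?_
    rw [← ENNReal.ofReal_mul (by positivity)]
    apply ENNReal.ofReal_le_ofReal
    apply le_of_eq
    field_simp
  refine hstep.trans ?_
  have hpc : 0 < π * c := by positivity
  have hne0 : ENNReal.ofReal (π * c) ≠ 0 := by
    simpa using hpc
  have hnet : ENNReal.ofReal (π * c) ≠ ⊤ := ENNReal.ofReal_ne_top
  rw [← ENNReal.mul_le_mul_iff_left hne0 hnet]
  refine le_trans ?_ hcover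
  rw [← ENNReal.ofReal_mul (by positivity)]
  apply ENNReal.ofReal_le_ofReal
  exact numeric_ratio hcpos hQ' hdet

/-- A body with small asymmetry about the origin, with an interior point, contains a ball about
the origin. -/
theorem exists_ball {K : Set E3} (hKc : Convex ℝ K) (hint : (interior K).Nonempty) {s : ℝ}
    (hs : 0 < s) (hsym : ∀ p ∈ K, (-s⁻¹) • p ∈ K) :
    ∃ r : ℝ, 0 < r ∧ Metric.closedBall (0 : E3) r ⊆ K := by
  obtain ⟨p, hp⟩ := hint
  obtain ⟨ρ, hρ, hball⟩ := Metric.isOpen_iff.mp isOpen_interior p hp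
  have hs1 : 0 < 1 + s := by linarith
  set l := 1 / (1 + s) with hl
  have hl0 : 0 < l := by positivity
  have hl1 : l ≤ 1 := by
    rw [hl, div_le_one hs1]
    linarith
  refine ⟨l * (ρ / 2), by positivity, ?_⟩
  intro v hv
  rw [mem_closedBall_zero_iff] at hv
  set u := l⁻¹ • v with hu
  have hun : ‖u‖ < ρ := by
    rw [hu, norm_smul, norm_inv, Real.norm_eq_abs, abs_of_pos hl0]
    calc l⁻¹ * ‖v‖ ≤ l⁻¹ * (l * (ρ / 2)) := mul_le_mul_of_nonneg_left hv (by positivity)
      _ = ρ / 2 := by field_simp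
      _ < ρ := by linarith
  have h1 : p + u ∈ K := by
    apply interior_subset
    apply hball
    rw [Metric.mem_ball, dist_eq_norm]
    simpa using hun
  have h2 := hsym p (interior_subset hp)
  have h3 := hKc h1 h2 hl0.le (by linarith : 0 ≤ 1 - l) (by ring)
  have h4 : l • (p + u) + (1 - l) • ((-s⁻¹) • p) = v := by
    have h5 : (1 - l) * (-s⁻¹) = - l := by
      rw [hl]
      field_simp
      ring
    rw [smul_add, smul_smul (1 - l), h5, neg_smul, hu, smul_smul l, mul_inv_cancel₀ hl0.ne', one_smul]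
    abel
  rwa [h4] at h3

/-- The translation vector of a frame. -/
def tv (f : Fin 3 → E3) (c : E3) : Pl := (inner ℝ (f 0) c, inner ℝ (f 1) c)

lemma shadow_translate (f : Fin 3 → E3) (c : E3) (K : Set E3) :
    (fun p => ((inner ℝ (f 0) p, inner ℝ (f 1) p) : Pl)) '' ((fun p => p - c) '' K)
      = (fun q : Pl => q + tv f c) ⁻¹' ((fun p => ((inner ℝ (f 0) p, inner ℝ (f 1) p) : Pl)) '' K) := by
  ext q
  constructor
  · rintro ⟨_, ⟨p, hp, rfl⟩, rfl⟩
    refine ⟨p, hp, ?_⟩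
    simp only [tv, inner_sub_right, Prod.mk_add_mk, sub_add_cancel]
  · rintro ⟨p, hp, hq⟩
    refine ⟨p - c, ⟨p, hp, rfl⟩, ?_⟩
    simp only [inner_sub_right]
    have hq' : q = ((inner ℝ (f 0) p, inner ℝ (f 1) p) : Pl) - tv f c := by
      simp only at hq
      rw [hq]
      abel
    rw [hq']
    rfl

lemma volume_translate (S : Set Pl) (t : Pl) :
    volume ((fun q : Pl => q + t) ⁻¹' S) = volume S := by
  rw [Measure.volume_eq_prod]
  exact measure_preimage_add_right _ t S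

/-- The half-area bound for a body with small asymmetry about a point `c`: some projection
has area at most `(1 + s) ^ 2 / 2` times the total base area. -/
theorem half_area_exists {ι : Type*} [Fintype ι] {K : Set E3} (hK : IsCompact K)
    (hKc : Convex ℝ K) (hint : (interior K).Nonempty) (c : E3) {s : ℝ} (hs : 0 < s)
    (hsym : ∀ p ∈ K, c - s⁻¹ • (p - c) ∈ K)
    (e : ι → Fin 3 → E3) (he : ∀ i, Orthonormal ℝ (e i)) (B : ι → Set Pl)
    (hcov : ∀ x ∈ K, ∃ i, ((inner ℝ (e i 0) x, inner ℝ (e i 1) x) : Pl) ∈ B i) :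
    ∃ f : Fin 3 → E3, Orthonormal ℝ f ∧
      ENNReal.ofReal (2 / (1 + s) ^ 2) *
        volume ((fun p => ((inner ℝ (f 0) p, inner ℝ (f 1) p) : Pl)) '' K)
        ≤ ∑ i, volume (B i) := by
  set K₀ : Set E3 := (fun p => p - c) '' K with hK₀
  have hhom : (fun p : E3 => p - c) = Homeomorph.subRight c := rfl
  have hK₀c : IsCompact K₀ := hK.image (continuous_id.sub continuous_const)
  have hK₀v : Convex ℝ K₀ := by
    have h1 : K₀ = (fun p => -c + p) '' K := by
      rw [hK₀]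
      congr 1
      funext p
      abel
    rw [h1]
    exact hKc.translate (-c)
  have hK₀i : (interior K₀).Nonempty := by
    rw [hK₀, hhom, ← Homeomorph.image_interior]
    exact hint.image _
  have hK₀s : ∀ p ∈ K₀, (-s⁻¹) • p ∈ K₀ := by
    rintro _ ⟨p, hp, rfl⟩
    refine ⟨_, hsym p hp, ?_⟩
    simp only [neg_smul]
    abel
  obtain ⟨r, hr, hball⟩ := exists_ball hK₀v hK₀i hs hK₀s
  have hcov₀ : ∀ x ∈ K₀, ∃ i, ((inner ℝ (e i 0) x, inner ℝ (e i 1) x) : Pl) ∈
      (fun q : Pl => q + tv (e i) c) ⁻¹' B i := by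
    rintro _ ⟨p, hp, rfl⟩
    obtain ⟨i, hi⟩ := hcov p hp
    refine ⟨i, ?_⟩
    simp only [mem_preimage, tv, inner_sub_right, Prod.mk_add_mk, sub_add_cancel]
    exact hi
  obtain ⟨f, hf, hle⟩ := core hK₀c hK₀v hr hball hs hK₀s e he
    (fun i => (fun q : Pl => q + tv (e i) c) ⁻¹' B i) hcov₀
  refine ⟨f, hf, ?_⟩
  rw [hK₀, shadow_translate, volume_translate] at hle
  simpa only [volume_translate] using hle

/-- The half-area bound in terms of the infimum of the projection areas. -/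
theorem half_area {ι : Type*} [Fintype ι] {K : Set E3} (hK : IsCompact K)
    (hKc : Convex ℝ K) (hint : (interior K).Nonempty) (c : E3) {s : ℝ} (hs : 0 < s)
    (hsym : ∀ p ∈ K, c - s⁻¹ • (p - c) ∈ K)
    (e : ι → Fin 3 → E3) (he : ∀ i, Orthonormal ℝ (e i)) (B : ι → Set Pl)
    (hcov : ∀ x ∈ K, ∃ i, ((inner ℝ (e i 0) x, inner ℝ (e i 1) x) : Pl) ∈ B i) :
    ENNReal.ofReal (2 / (1 + s) ^ 2) *
        (⨅ f : Fin 3 → E3, ⨅ _ : Orthonormal ℝ f,
          volume ((fun p => ((inner ℝ (f 0) p, inner ℝ (f 1) p) : Pl)) '' K))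
        ≤ ∑ i, volume (B i) := by
  obtain ⟨f, hf, hle⟩ := half_area_exists hK hKc hint c hs hsym e he B hcov
  refine le_trans ?_ hle
  gcongr
  exact iInf₂_le f hf

end

end Vale.Agent.Lib.P243S
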