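import Vale.Agent.Lib.P243S.Cover

/-! The extremal ellipsoid for `det² / tr(AᵀA)` and its first-order condition. -/

namespace Vale.Agent.Lib.P243S

open MeasureTheory Set Real Filter Topology
open scoped RealInnerProductSpace Matrix
open Vale.Agent.Lib.P243 Vale.Agent.Lib.P237.PN

noncomputable section

/-- The Frobenius quantity `tr(MᵀM)`. -/
def frob (M : MM 3) : ℝ := (Mᵀ * M).trace

lemma frob_eq (M : MM 3) : frob M = ∑ i, ∑ j, M i j ^ 2 := by
  simp only [frob, Matrix.trace, Matrix.diag, Matrix.mul_apply, Matrix.transpose_apply]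
  rw [Finset.sum_comm]
  refine Finset.sum_congr rfl fun i _ => Finset.sum_congr rfl fun j _ => ?_
  ring

lemma frob_nonneg (M : MM 3) : 0 ≤ frob M := by
  rw [frob_eq]
  positivity

lemma entry_sq_le (M : MM 3) (i j : Fin 3) : M i j ^ 2 ≤ frob M := by
  rw [frob_eq]
  calc M i j ^ 2 ≤ ∑ j, M i j ^ 2 :=
        Finset.single_le_sum (f := fun j => M i j ^ 2) (fun _ _ => sq_nonneg _) (Finset.mem_univ j)
    _ ≤ ∑ i, ∑ j, M i j ^ 2 :=
        Finset.single_le_sum (f := fun i => ∑ j, M i j ^ 2)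
          (fun _ _ => Finset.sum_nonneg fun _ _ => sq_nonneg _) (Finset.mem_univ i)

lemma frob_continuous : Continuous frob := by
  have : frob = fun M : MM 3 => ∑ i, ∑ j, M i j ^ 2 := funext frob_eq
  rw [this]
  apply continuous_finset_sum
  intro i _
  apply continuous_finset_sum
  intro j _
  exact (continuous_apply_apply i j).pow 2

lemma det_sq_le (M : MM 3) : M.det ^ 2 ≤ 36 * frob M ^ 3 := by
  set s := √(frob M) with hs
  have hs0 : 0 ≤ s := Real.sqrt_nonneg _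
  have hss : s ^ 2 = frob M := Real.sq_sqrt (frob_nonneg M)
  have hab : ∀ i j, |M i j| ≤ s := by
    intro i j
    apply Real.abs_le_sqrt
    exact entry_sq_le M i j
  have h3 : ∀ a b c : ℝ, |a| ≤ s → |b| ≤ s → |c| ≤ s → |a * b * c| ≤ s ^ 3 := by
    intro a b c ha hb hc
    rw [abs_mul, abs_mul]
    calc |a| * |b| * |c| ≤ s * s * s := by gcongr
      _ = s ^ 3 := by ring
  have hd : |M.det| ≤ 6 * s ^ 3 := by
    rw [Matrix.det_fin_three]
    have t1 := h3 _ _ _ (hab 0 0) (hab 1 1) (hab 2 2)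
    have t2 := h3 _ _ _ (hab 0 0) (hab 1 2) (hab 2 1)
    have t3 := h3 _ _ _ (hab 0 1) (hab 1 0) (hab 2 2)
    have t4 := h3 _ _ _ (hab 0 1) (hab 1 2) (hab 2 0)
    have t5 := h3 _ _ _ (hab 0 2) (hab 1 0) (hab 2 1)
    have t6 := h3 _ _ _ (hab 0 2) (hab 1 1) (hab 2 0)
    rw [abs_le] at t1 t2 t3 t4 t5 t6 ⊢
    constructor <;> linarith [t1.1, t1.2, t2.1, t2.2, t3.1, t3.2, t4.1, t4.2, t5.1, t5.2, t6.1, t6.2]
  have h5 : M.det ^ 2 ≤ (6 * s ^ 3) ^ 2 := by
    rw [← sq_abs]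
    exact pow_le_pow_left₀ (abs_nonneg _) hd 2
  calc M.det ^ 2 ≤ (6 * s ^ 3) ^ 2 := h5
    _ = 36 * (s ^ 2) ^ 3 := by ring
    _ = 36 * frob M ^ 3 := by rw [hss]

lemma frob_smul_one (r : ℝ) : frob (r • (1 : MM 3)) = 3 * r ^ 2 := by
  rw [frob_eq]
  simp [Fin.sum_univ_three, Matrix.one_apply]

/-- Existence of the extremal ellipsoid. -/
theorem exists_opt {K : Set (EE 3)} (hK : IsCompact K) {r : ℝ} (hr : 0 < r)
    (hball : Metric.closedBall (0 : EE 3) r ⊆ K) :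
    ∃ A : MM 3, A.det ≠ 0 ∧ (∀ x : EE 3, ‖x‖ ≤ 1 → act A x ∈ K) ∧
      ∀ S : MM 3, (∀ x : EE 3, ‖x‖ ≤ 1 → act S x ∈ K) →
        S.det ^ 2 * frob A ≤ A.det ^ 2 * frob S := by
  set ρ : ℝ := r ^ 2 / 11 with hρ
  have hρ0 : 0 < ρ := by positivity
  set g : MM 3 → ℝ := fun M => M.det ^ 2 / max (frob M) ρ with hg
  have hgc : Continuous g := by
    apply Continuous.div
    · exact (Continuous.matrix_det continuous_id).pow 2
    · exact frob_continuous.max continuous_const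
    · intro M
      exact (lt_of_lt_of_le hρ0 (le_max_right _ _)).ne'
  have hmem : (r • (1 : MM 3)) ∈ {M : MM 3 | ∀ x : EE 3, ‖x‖ ≤ 1 → act M x ∈ K} := by
    intro x hx
    rw [act_smul_left, act_one]
    apply hball
    rw [mem_closedBall_zero_iff, norm_smul, Real.norm_of_nonneg hr.le]
    nlinarith
  obtain ⟨A, hA, hmax⟩ := (inscribed_compact hK).exists_isMaxOn ⟨_, hmem⟩ hgc.continuousOn
  have hmaxS : ∀ S : MM 3, (∀ x : EE 3, ‖x‖ ≤ 1 → act S x ∈ K) → g S ≤ g A := fun S hS => hmax hS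
  have hA1 : r ^ 4 / 3 ≤ g A := by
    have h1 := hmaxS _ hmem
    have h2 : g (r • (1 : MM 3)) = r ^ 4 / 3 := by
      simp only [hg]
      rw [frob_smul_one, max_eq_left (by rw [hρ]; nlinarith [sq_nonneg r, sq_pos_of_pos hr])]
      rw [Matrix.det_smul, Matrix.det_one]
      simp only [Fintype.card_fin, mul_one]
      field_simp
    rwa [h2] at h1
  have hr4 : 0 < r ^ 4 := by positivity
  have hgA : 0 < g A := lt_of_lt_of_le (by positivity) hA1
  have hρ2 : 36 * ρ ^ 2 < r ^ 4 / 3 := by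
    rw [hρ]
    nlinarith
  have hfA : ρ < frob A := by
    by_contra hle
    have hle' : frob A ≤ ρ := not_lt.mp hle
    have h1 : g A = A.det ^ 2 / ρ := by
      simp only [hg]
      rw [max_eq_right hle']
    have h2 : A.det ^ 2 ≤ 36 * ρ ^ 3 := by
      refine (det_sq_le A).trans ?_
      have := pow_le_pow_left₀ (frob_nonneg A) hle' 3
      linarith
    have h3 : g A ≤ 36 * ρ ^ 2 := by
      rw [h1, div_le_iff₀ hρ0]
      calc A.det ^ 2 ≤ 36 * ρ ^ 3 := h2
        _ = 36 * ρ ^ 2 * ρ := by ring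
    linarith
  have hgAe : g A = A.det ^ 2 / frob A := by
    simp only [hg]
    rw [max_eq_left hfA.le]
  have hf0 : 0 < frob A := hρ0.trans hfA
  refine ⟨A, ?_, hA, ?_⟩
  · intro h0
    rw [hgAe, h0] at hgA
    simp at hgA
  · intro S hS
    have hdA : r ^ 4 / 3 * frob A ≤ A.det ^ 2 := by
      rw [hgAe, le_div_iff₀ hf0] at hA1
      exact hA1
    by_cases hfS : ρ ≤ frob S
    · have h1 := hmaxS S hS
      have h2 : g S = S.det ^ 2 / frob S := by
        simp only [hg]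
        rw [max_eq_left hfS]
      have hfS0 : 0 < frob S := lt_of_lt_of_le hρ0 hfS
      rw [h2, hgAe, div_le_div_iff₀ hfS0 hf0] at h1
      exact h1
    · have hfS' : frob S < ρ := not_le.mp hfS
      have h0 := frob_nonneg S
      have h1 := det_sq_le S
      have h2 : 36 * frob S ^ 2 ≤ r ^ 4 / 3 := by
        have : frob S ^ 2 ≤ ρ ^ 2 := pow_le_pow_left₀ h0 hfS'.le 2
        linarith
      calc S.det ^ 2 * frob A ≤ (36 * frob S ^ 3) * frob A := by gcongr
        _ = (36 * frob S ^ 2) * (frob S * frob A) := by ring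
        _ ≤ (r ^ 4 / 3) * (frob S * frob A) := by gcongr
        _ = (r ^ 4 / 3 * frob A) * frob S := by ring
        _ ≤ A.det ^ 2 * frob S := by gcongr

/-- A matrix negative on all contact directions gives admissible perturbations. -/
lemma perturb {K : Set (EE 3)} (hK : IsCompact K) (hKc : Convex ℝ K)
    (hK0 : Metric.closedBall (0 : EE 3) 1 ⊆ K) (B : MM 3)
    (hB : ∀ y : EE 3, ‖y‖ = 1 → (∀ x ∈ K, ⟪x, y⟫ ≤ 1) → ⟪act B y, y⟫ < 0) :
    ∃ η : ℝ, 0 < η ∧ ∀ᶠ ε : ℝ in 𝓝[>] 0, 0 < ε ∧ ε * η / 2 < 1 ∧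
      ∀ x : EE 3, ‖x‖ ≤ 1 → act ((1 - ε * η / 2)⁻¹ • (1 + ε • B)) x ∈ K := by
  have hnh : K ∈ 𝓝 (0 : EE 3) := Filter.mem_of_superset (Metric.closedBall_mem_nhds 0 one_pos) hK0
  have habs : Absorbent ℝ K := absorbent_nhds_zero hnh
  set g : EE 3 → ℝ := fun y => ⟪act B y, y⟫ with hg
  have hgc : Continuous g := by
    simp only [hg]
    exact (act_continuous B).inner continuous_id
  have hgv : Continuous (gauge K) := continuous_gauge hKc hnh
  set m : EE 3 → ℝ := fun y => min (g y) (gauge K y - 1) with hm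
  have hmc : Continuous m := hgc.min (hgv.sub continuous_const)
  have hneg : ∀ y ∈ Metric.sphere (0 : EE 3) 1, m y < 0 := by
    intro y hy
    have hy' : ‖y‖ = 1 := by simpa using hy
    rw [hm]
    by_cases hlt : gauge K y < 1
    · exact min_lt_of_right_lt (by linarith)
    · apply min_lt_of_left_lt
      exact hB y hy' (contact_of_gauge hKc hK.isClosed hK0 hy' hlt)
  have hsph : IsCompact (Metric.sphere (0 : EE 3) 1) := isCompact_sphere 0 1
  have hsne : (Metric.sphere (0 : EE 3) 1).Nonempty := by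
    refine ⟨EuclideanSpace.single 0 1, ?_⟩
    simp
  obtain ⟨y₀, hy₀, hmaxm⟩ := hsph.exists_isMaxOn hsne hmc.continuousOn
  set η := - m y₀ with hη
  have hηpos : 0 < η := by
    have := hneg y₀ hy₀
    linarith
  have hall : ∀ y : EE 3, ‖y‖ = 1 → g y ≤ -η ∨ gauge K y - 1 ≤ -η := by
    intro y hy
    have hmem : y ∈ Metric.sphere (0 : EE 3) 1 := by simpa using hy
    have h1 : m y ≤ m y₀ := hmaxm hmem
    have h2 : m y ≤ -η := by rw [hη, neg_neg]; exact h1
    rcases min_choice (g y) (gauge K y - 1) with h | h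
    · left
      simp only [hm] at h2
      rwa [h] at h2
    · right
      simp only [hm] at h2
      rwa [h] at h2
  obtain ⟨M₀, hM₀⟩ := hsph.exists_bound_of_continuousOn (act_continuous B).continuousOn
  set M := max M₀ 1 with hM
  have hMpos : 0 < M := lt_of_lt_of_le one_pos (le_max_right _ _)
  have hbound : ∀ y : EE 3, ‖y‖ = 1 → ‖act B y‖ ≤ M := by
    intro y hy
    exact (hM₀ y (by simpa using hy)).trans (le_max_left _ _)
  refine ⟨η, hηpos, ?_⟩
  have ev1 : ∀ᶠ ε : ℝ in 𝓝[>] 0, ε * M ^ 2 < η := by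
    have : Tendsto (fun ε : ℝ => ε * M ^ 2) (𝓝 0) (𝓝 (0 * M ^ 2)) :=
      (continuous_id.mul continuous_const).tendsto 0
    rw [zero_mul] at this
    exact (this.mono_left nhdsWithin_le_nhds).eventually (gt_mem_nhds hηpos)
  have ev2 : ∀ᶠ ε : ℝ in 𝓝[>] 0, ε * (M + η / 2) < η := by
    have : Tendsto (fun ε : ℝ => ε * (M + η / 2)) (𝓝 0) (𝓝 (0 * (M + η / 2))) :=
      (continuous_id.mul continuous_const).tendsto 0
    rw [zero_mul] at this
    exact (this.mono_left nhdsWithin_le_nhds).eventually (gt_mem_nhds hηpos)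
  have ev3 : ∀ᶠ ε : ℝ in 𝓝[>] 0, ε * η / 2 < 1 := by
    have : Tendsto (fun ε : ℝ => ε * η / 2) (𝓝 0) (𝓝 (0 * η / 2)) :=
      ((continuous_id.mul continuous_const).div_const 2).tendsto 0
    simp only [zero_mul, zero_div] at this
    exact (this.mono_left nhdsWithin_le_nhds).eventually (gt_mem_nhds one_pos)
  filter_upwards [ev1, ev2, ev3, self_mem_nhdsWithin] with ε h1 h2 h3 hε
  have hε0 : 0 < ε := hε
  refine ⟨hε0, h3, ?_⟩
  set κ := 1 - ε * η / 2 with hκ
  have hκ0 : 0 < κ := by rw [hκ]; linarith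
  have hz : ∀ y : EE 3, ‖y‖ = 1 → gauge K (y + ε • act B y) ≤ κ := by
    intro y hy
    rcases hall y hy with hc | hc
    · refine (gauge_le_norm hK0 _).trans ?_
      have hgy : ⟪act B y, y⟫ ≤ -η := hc
      have hsq : ‖y + ε • act B y‖ ^ 2 ≤ κ ^ 2 := by
        rw [norm_add_sq_real, inner_smul_right, real_inner_comm, norm_smul, Real.norm_of_nonneg hε0.le,
          hy, mul_pow]
        have hb := hbound y hy
        have hb2 : ‖act B y‖ ^ 2 ≤ M ^ 2 := pow_le_pow_left₀ (norm_nonneg _) hb 2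
        have h5 : ε ^ 2 * ‖act B y‖ ^ 2 ≤ ε ^ 2 * M ^ 2 :=
          mul_le_mul_of_nonneg_left hb2 (sq_nonneg ε)
        have h6 : ε * ⟪act B y, y⟫ ≤ ε * (-η) := mul_le_mul_of_nonneg_left hgy hε0.le
        have h7 : ε ^ 2 * M ^ 2 ≤ ε * η := by
          have := mul_le_mul_of_nonneg_left h1.le hε0.le
          nlinarith
        rw [hκ]
        nlinarith [mul_pos hε0 hηpos, sq_nonneg (ε * η)]
      exact (pow_le_pow_iff_left₀ (norm_nonneg _) hκ0.le two_ne_zero).mp hsq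
    · have hadd := gauge_add_le hKc habs y (ε • act B y)
      rw [gauge_smul_of_nonneg hε0.le, smul_eq_mul] at hadd
      have hb := (gauge_le_norm hK0 (act B y)).trans (hbound y hy)
      have h5 : ε * gauge K (act B y) ≤ ε * M := mul_le_mul_of_nonneg_left hb hε0.le
      rw [hκ]
      nlinarith
  set S : MM 3 := κ⁻¹ • (1 + ε • B) with hS
  have hSact : ∀ x : EE 3, act S x = κ⁻¹ • (x + ε • act B x) := by
    intro x
    rw [hS, act_smul_left, act_one_add_smul]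
  intro x hx
  rcases eq_or_ne x 0 with rfl | hx0
  · rw [act_zero]
    exact hK0 (by simp)
  · have hn : 0 < ‖x‖ := norm_pos_iff.mpr hx0
    have hu : ‖‖x‖⁻¹ • x‖ = 1 := by
      rw [norm_smul, norm_inv, norm_norm, inv_mul_cancel₀ hn.ne']
    have hx' : x = ‖x‖ • (‖x‖⁻¹ • x) := by
      rw [smul_smul, mul_inv_cancel₀ hn.ne', one_smul]
    have h5 : act S x = (‖x‖ * κ⁻¹) • ((‖x‖⁻¹ • x) + ε • act B (‖x‖⁻¹ • x)) := by
      conv_lhs => rw [hx', act_smul, hSact]
      rw [smul_smul]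
    have h6 : gauge K (act S x) ≤ 1 := by
      rw [h5, gauge_smul_of_nonneg (by positivity), smul_eq_mul]
      have := hz _ hu
      calc ‖x‖ * κ⁻¹ * gauge K (‖x‖⁻¹ • x + ε • act B (‖x‖⁻¹ • x))
          ≤ ‖x‖ * κ⁻¹ * κ := mul_le_mul_of_nonneg_left this (by positivity)
        _ = ‖x‖ := by field_simp
        _ ≤ 1 := hx
    have := (gauge_le_one_iff_mem_closure hKc hnh).mp h6
    rwa [hK.isClosed.closure_eq] at this

/-- The real-variable core of the first order condition. -/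
lemma eventually_contra {T a b c η : ℝ} (hT : 0 < T) (hη : 0 < η) (hab : T * a = b) {gd : ℝ → ℝ}
    (hgdc : Continuous gd) :
    ∀ᶠ ε : ℝ in 𝓝[>] 0, 0 < ε → ε * η / 2 < 1 →
      ((1 - ε * η / 2)⁻¹ ^ 3 * (1 + a * ε + gd ε * ε ^ 2)) ^ 2 * T
        > (1 - ε * η / 2)⁻¹ ^ 2 * (T + 2 * ε * b + ε ^ 2 * c) := by
  set W : ℝ → ℝ := fun ε => T * (a ^ 2 + 2 * gd ε + 2 * ε * a * gd ε + gd ε ^ 2 * ε ^ 2) - c with hW
  have hWc : Continuous W := by
    simp only [hW]
    fun_prop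
  set t : ℝ → ℝ := fun ε => T + 2 * ε * b + ε ^ 2 * c with ht
  have htc : Continuous t := by
    simp only [ht]
    fun_prop
  set φ : ℝ → ℝ := fun ε => ε * W ε + η / 2 * t ε with hφ
  have hφc : Continuous φ := by
    simp only [hφ]
    fun_prop
  have hφ0 : 0 < φ 0 := by
    simp only [hφ, ht]
    simp
    positivity
  have ev1 : ∀ᶠ ε : ℝ in 𝓝[>] 0, 0 < φ ε :=
    ((hφc.tendsto 0).mono_left nhdsWithin_le_nhds).eventually (lt_mem_nhds hφ0)
  have ev2 : ∀ᶠ ε : ℝ in 𝓝[>] 0, 0 < t ε := by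
    have h0 : 0 < t 0 := by
      simp only [ht]
      simpa using hT
    exact ((htc.tendsto 0).mono_left nhdsWithin_le_nhds).eventually (lt_mem_nhds h0)
  filter_upwards [ev1, ev2] with ε h2 h3 hε0 hε1
  set κ := 1 - ε * η / 2 with hκ
  have hκ0 : 0 < κ := by rw [hκ]; linarith
  have hκ1 : κ ≤ 1 := by
    rw [hκ]
    have := mul_pos hε0 hη
    linarith
  set d := 1 + a * ε + gd ε * ε ^ 2 with hd
  have hexp : d ^ 2 * T = t ε + ε ^ 2 * W ε := by
    simp only [ht, hW, hd]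
    calc (1 + a * ε + gd ε * ε ^ 2) ^ 2 * T
        = T + 2 * ε * (T * a) + ε ^ 2 * (T * (a ^ 2 + 2 * gd ε + 2 * ε * a * gd ε + gd ε ^ 2 * ε ^ 2)) := by
          ring
      _ = T + 2 * ε * b + ε ^ 2 * c + ε ^ 2 * (T * (a ^ 2 + 2 * gd ε + 2 * ε * a * gd ε + gd ε ^ 2 * ε ^ 2) - c) := by
          rw [hab]
          ring
  have hκ4 : κ ^ 4 ≤ κ := by
    calc κ ^ 4 ≤ κ ^ 1 := pow_le_pow_of_le_one hκ0.le hκ1 (by norm_num)
      _ = κ := pow_one κ
  have h5 : κ ^ 4 * t ε ≤ κ * t ε := mul_le_mul_of_nonneg_right hκ4 h3.le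
  have h7 : (κ - 1) * t ε = - (ε * (η / 2 * t ε)) := by
    rw [hκ]
    ring
  have h9 := mul_pos hε0 h2
  have h10 : ε * φ ε = ε ^ 2 * W ε + ε * (η / 2 * t ε) := by
    simp only [hφ]
    ring
  have h11 : κ ^ 4 * t ε < d ^ 2 * T := by
    rw [hexp]
    have h12 : κ * t ε = t ε + (κ - 1) * t ε := by ring
    rw [h7] at h12
    linarith
  -- divide by the positive factor
  have hκ6 : 0 < κ⁻¹ ^ 6 := by positivity
  have h13 := mul_lt_mul_of_pos_left h11 hκ6
  have e1 : κ⁻¹ ^ 6 * (κ ^ 4 * t ε) = κ⁻¹ ^ 2 * t ε := by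
    have h14 : κ⁻¹ ^ 4 * κ ^ 4 = 1 := by
      rw [← mul_pow, inv_mul_cancel₀ hκ0.ne']
      simp
    calc κ⁻¹ ^ 6 * (κ ^ 4 * t ε) = κ⁻¹ ^ 2 * (κ⁻¹ ^ 4 * κ ^ 4) * t ε := by ring
      _ = κ⁻¹ ^ 2 * t ε := by rw [h14, mul_one]
  have e2 : κ⁻¹ ^ 6 * (d ^ 2 * T) = (κ⁻¹ ^ 3 * d) ^ 2 * T := by ring
  rw [e1, e2] at h13
  exact h13

lemma quad_expand {N B : MM 3} (hNs : Nᵀ = N) (ε κ' : ℝ) :
    ((κ' • (1 + ε • B))ᵀ * N * (κ' • (1 + ε • B))).trace
      = κ' ^ 2 * (N.trace + 2 * ε * (N * B).trace + ε ^ 2 * (Bᵀ * N * B).trace) := by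
  have h6 : (1 + ε • B)ᵀ * N * (1 + ε • B)
      = N + ε • (Bᵀ * N) + ε • (N * B) + (ε ^ 2) • (Bᵀ * N * B) := by
    simp only [Matrix.transpose_add, Matrix.transpose_one, Matrix.transpose_smul, Matrix.add_mul,
      Matrix.mul_add, Matrix.one_mul, Matrix.mul_one, Matrix.smul_mul, Matrix.mul_smul, smul_smul,
      smul_add, pow_two, add_assoc]
  have h7 : (Bᵀ * N).trace = (N * B).trace := by
    rw [← Matrix.trace_transpose (Bᵀ * N), Matrix.transpose_mul, Matrix.transpose_transpose, hNs]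
  have h5 : ((1 + ε • B)ᵀ * N * (1 + ε • B)).trace
      = N.trace + 2 * ε * (N * B).trace + ε ^ 2 * (Bᵀ * N * B).trace := by
    rw [h6, Matrix.trace_add, Matrix.trace_add, Matrix.trace_add, Matrix.trace_smul,
      Matrix.trace_smul, Matrix.trace_smul, h7]
    simp only [smul_eq_mul]
    ring
  have h8 : (κ' • (1 + ε • B))ᵀ * N * (κ' • (1 + ε • B))
      = (κ' ^ 2) • ((1 + ε • B)ᵀ * N * (1 + ε • B)) := by
    simp only [Matrix.transpose_smul, Matrix.smul_mul, Matrix.mul_smul, smul_smul]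
    congr 1
    ring
  rw [h8, Matrix.trace_smul, h5, smul_eq_mul]

/-- The first order condition at the extremal ellipsoid, normalized to the unit ball. -/
theorem dual_test {K : Set (EE 3)} (hK : IsCompact K) (hKc : Convex ℝ K)
    (hK0 : Metric.closedBall (0 : EE 3) 1 ⊆ K) {N : MM 3} (hNs : Nᵀ = N)
    (hT : 0 < N.trace)
    (hmax : ∀ S : MM 3, (∀ x : EE 3, ‖x‖ ≤ 1 → act S x ∈ K) →
      S.det ^ 2 * N.trace ≤ (Sᵀ * N * S).trace) (G : MM 3) :
    ∃ y : EE 3, ‖y‖ = 1 ∧ (∀ x ∈ K, ⟪x, y⟫ ≤ 1) ∧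
      (G.trace - (N * G).trace / N.trace) / 2 ≤ ⟪act G y, y⟫ := by
  by_contra hne
  set T := N.trace with hTd
  set τ := (G.trace - (N * G).trace / T) / 2 with hτ
  have hne' : ∀ y : EE 3, ‖y‖ = 1 → (∀ x ∈ K, ⟪x, y⟫ ≤ 1) → ⟪act G y, y⟫ < τ := by
    intro y hy hc
    by_contra hlt
    exact hne ⟨y, hy, hc, not_lt.mp hlt⟩
  set B : MM 3 := G - τ • 1 with hB
  have hB' : ∀ y : EE 3, ‖y‖ = 1 → (∀ x ∈ K, ⟪x, y⟫ ≤ 1) → ⟪act B y, y⟫ < 0 := by
    intro y hy hc
    have h1 := hne' y hy hc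
    rw [hB, act_sub_smul_one, inner_sub_left, inner_smul_left, real_inner_self_eq_norm_sq, hy]
    simp
    linarith
  obtain ⟨η, hη, hev⟩ := perturb hK hKc hK0 B hB'
  have htr3 : (1 : MM 3).trace = 3 := by simp
  have hab : T * B.trace = (N * B).trace := by
    have e1 : B.trace = G.trace - 3 * τ := by
      rw [hB, Matrix.trace_sub, Matrix.trace_smul, htr3, smul_eq_mul]
      ring
    have e2 : (N * B).trace = (N * G).trace - τ * T := by
      rw [hB, Matrix.mul_sub, Matrix.trace_sub, Matrix.mul_smul, Matrix.mul_one,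
        Matrix.trace_smul, smul_eq_mul]
    rw [e1, e2, hτ]
    field_simp
    ring
  have hgdc : Continuous fun r : ℝ =>
      (Matrix.det (1 + (Polynomial.X : Polynomial ℝ) • B.map Polynomial.C)).divX.divX.eval r :=
    Polynomial.continuous _
  obtain ⟨ε, ⟨hε0, hε1, hadm⟩, hcon⟩ :=
    (hev.and (eventually_contra (c := (Bᵀ * N * B).trace) hT hη hab hgdc)).exists
  have hm := hmax _ hadm
  rw [quad_expand hNs, Matrix.det_smul, Matrix.det_one_add_smul, Fintype.card_fin] at hm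
  exact absurd hm (not_le.mpr (hcon hε0 hε1))

end

end Vale.Agent.Lib.P243S
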