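import Vale.Agent.Lib.P243.Main
import Vale.Agent.Lib.P237.PN.John

/-! The Archimedes weight on the unit ball of three-space: all its X-rays are constant. -/

namespace Vale.Agent.Lib.P243S

open MeasureTheory Set Real
open Vale.Agent.Lib.P243

noncomputable section

/-- The base integral on the line. -/
def gg (τ : ℝ) : ENNReal := ENNReal.ofReal (√(1 - τ ^ 2))⁻¹

lemma gg_measurable : Measurable gg := by
  unfold gg
  fun_prop

lemma gg_eq_zero {τ : ℝ} (h : τ ∉ Ioo (-1 : ℝ) 1) : gg τ = 0 := by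
  unfold gg
  have h1 : 1 - τ ^ 2 ≤ 0 := by
    by_contra hc
    push_neg at hc
    apply h
    constructor <;> nlinarith
  rw [Real.sqrt_eq_zero_of_nonpos h1]
  simp

lemma image_sin_Ioo : Real.sin '' Ioo (-(π / 2)) (π / 2) = Ioo (-1 : ℝ) 1 := by
  ext τ
  constructor
  · rintro ⟨θ, hθ, rfl⟩
    constructor
    · have := Real.strictMonoOn_sin (a := -(π / 2)) (b := θ) (by constructor <;> linarith [pi_pos]) ⟨hθ.1.le, hθ.2.le⟩ hθ.1
      simpa using this
    · have := Real.strictMonoOn_sin (a := θ) (b := π / 2) ⟨hθ.1.le, hθ.2.le⟩ (by constructor <;> linarith [pi_pos]) hθ.2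
      simpa using this
  · rintro ⟨h1, h2⟩
    refine ⟨Real.arcsin τ, ⟨?_, ?_⟩, Real.sin_arcsin h1.le h2.le⟩
    · rw [Real.neg_pi_div_two_lt_arcsin]
      exact h1
    · rw [Real.arcsin_lt_pi_div_two]
      exact h2

/-- `∫ (1 - τ²)^(-1/2) dτ = π`. -/
lemma base_integral : ∫⁻ τ, gg τ = ENNReal.ofReal π := by
  have h1 : ∫⁻ τ, gg τ = ∫⁻ τ in Ioo (-1 : ℝ) 1, gg τ := by
    rw [← lintegral_indicator measurableSet_Ioo]
    apply lintegral_congr
    intro τ
    by_cases h : τ ∈ Ioo (-1 : ℝ) 1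
    · rw [indicator_of_mem h]
    · rw [indicator_of_notMem h, gg_eq_zero h]
  rw [h1, ← image_sin_Ioo]
  have hd : ∀ x ∈ Ioo (-(π / 2)) (π / 2), HasDerivWithinAt Real.sin (Real.cos x)
      (Ioo (-(π / 2)) (π / 2)) x := fun x _ => (Real.hasDerivAt_sin x).hasDerivWithinAt
  have hinj : InjOn Real.sin (Ioo (-(π / 2)) (π / 2)) :=
    Real.strictMonoOn_sin.injOn.mono Ioo_subset_Icc_self
  rw [lintegral_image_eq_lintegral_abs_deriv_mul measurableSet_Ioo hd hinj]
  have h2 : ∫⁻ x in Ioo (-(π / 2)) (π / 2), ENNReal.ofReal |Real.cos x| * gg (Real.sin x)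
      = ∫⁻ _x in Ioo (-(π / 2)) (π / 2), 1 := by
    apply setLIntegral_congr_fun measurableSet_Ioo
    intro x hx
    have hc : 0 < Real.cos x := Real.cos_pos_of_mem_Ioo hx
    simp only [gg]
    have e : 1 - Real.sin x ^ 2 = Real.cos x ^ 2 := by
      have := Real.sin_sq_add_cos_sq x
      linarith
    rw [e, Real.sqrt_sq hc.le, abs_of_pos hc, ← ENNReal.ofReal_mul hc.le, mul_inv_cancel₀ hc.ne']
    simp
  rw [h2]
  simp only [lintegral_const, MeasurableSet.univ, Measure.restrict_apply, univ_inter, one_mul,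
    Real.volume_Ioo]
  congr 1
  ring

/-- The line integral of the reciprocal square root of a quadratic. -/
lemma line_integral {α β γ : ℝ} (hα : 0 < α) (hβ : 0 < β) :
    ∫⁻ t : ℝ, ENNReal.ofReal (√(α - (β * t + γ) ^ 2))⁻¹ = ENNReal.ofReal (π / β) := by
  set r := √α with hr
  have hr0 : 0 < r := Real.sqrt_pos.mpr hα
  have hrr : r ^ 2 = α := Real.sq_sqrt hα.le
  have h1 : ∀ t : ℝ, ENNReal.ofReal (√(α - (β * t + γ) ^ 2))⁻¹
      = ENNReal.ofReal r⁻¹ * gg ((β / r) * t + γ / r) := by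
    intro t
    simp only [gg]
    rw [← ENNReal.ofReal_mul (inv_nonneg.mpr hr0.le)]
    congr 1
    have e : α - (β * t + γ) ^ 2 = r ^ 2 * (1 - (β / r * t + γ / r) ^ 2) := by
      rw [← hrr]
      field_simp
    rw [e, Real.sqrt_mul (sq_nonneg r), Real.sqrt_sq hr0.le, mul_inv]
  simp_rw [h1]
  rw [lintegral_const_mul' _ _ ENNReal.ofReal_ne_top]
  have h2 : ∫⁻ t : ℝ, gg ((β / r) * t + γ / r) = ENNReal.ofReal (r / β) * ENNReal.ofReal π := by
    have hc : β / r ≠ 0 := by positivity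
    have h3 : ∫⁻ t : ℝ, gg ((β / r) * t + γ / r) = ∫⁻ t : ℝ, (fun s => gg (s + γ / r)) ((β / r) * t) := rfl
    rw [h3]
    have hm : Measurable fun s : ℝ => gg (s + γ / r) := gg_measurable.comp (by fun_prop)
    have h4 := lintegral_map (μ := (volume : Measure ℝ)) hm (measurable_const_mul (β / r))
    rw [← h4, Real.map_volume_mul_left hc, lintegral_smul_measure,
      lintegral_add_right_eq_self gg (γ / r), base_integral]
    simp only [smul_eq_mul]
    congr 2
    rw [abs_of_pos (by positivity)]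
    field_simp
  rw [h2, ← mul_assoc, ← ENNReal.ofReal_mul (inv_nonneg.mpr hr0.le),
    ← ENNReal.ofReal_mul (by positivity)]
  congr 1
  field_simp

/-- The Archimedes weight. -/
def wt (y : E3) : ENNReal := ENNReal.ofReal (√(1 - ‖y‖ ^ 2))⁻¹

lemma wt_measurable : Measurable wt := by
  unfold wt
  fun_prop

lemma wt_eq_zero {y : E3} (h : 1 ≤ ‖y‖) : wt y = 0 := by
  unfold wt
  have h1 : 1 - ‖y‖ ^ 2 ≤ 0 := by nlinarith
  rw [Real.sqrt_eq_zero_of_nonpos h1]
  simp

/-- The X-ray of the weight along a line. -/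
lemma xray_le (y₀ v : E3) (hv : v ≠ 0) :
    ∫⁻ t : ℝ, wt (y₀ + t • v) ≤ ENNReal.ofReal (π / ‖v‖) := by
  have hβ : 0 < ‖v‖ := norm_pos_iff.mpr hv
  set β := ‖v‖ with hβd
  set γ := inner ℝ y₀ v / β with hγ
  set α := 1 - ‖y₀‖ ^ 2 + γ ^ 2 with hα
  have h1 : ∀ t : ℝ, wt (y₀ + t • v) = ENNReal.ofReal (√(α - (β * t + γ) ^ 2))⁻¹ := by
    intro t
    unfold wt
    congr 3
    rw [norm_add_sq_real, inner_smul_right, norm_smul, Real.norm_eq_abs, mul_pow, sq_abs, hα, hγ]
    field_simp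
    ring
  simp_rw [h1]
  by_cases hα0 : 0 < α
  · exact (line_integral hα0 hβ).le
  · have h2 : ∀ t : ℝ, ENNReal.ofReal (√(α - (β * t + γ) ^ 2))⁻¹ = 0 := by
      intro t
      rw [Real.sqrt_eq_zero_of_nonpos (by nlinarith [sq_nonneg (β * t + γ)])]
      simp
    simp_rw [h2]
    simp

end

end Vale.Agent.Lib.P243S
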